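import Crest.Agent.R163.Q3.D.L10.Par
import Crest.Agent.R163.Q3.D.F7c.F0
import Crest.Agent.R163.Q3.D.F7c.F1
import Crest.Agent.R163.Q3.D.F7c.F2
import Crest.Agent.R163.Q3.D.F7c.F3
import Crest.Agent.R163.Q3.D.F7c.F4
import Crest.Agent.R163.Q3.D.F7c.F5
import Crest.Agent.R163.Q3.D.F7c.F6
import Crest.Agent.R163.Q3.D.F7c.F7
import Crest.Agent.R163.Q3.D.F7c.F8
import Crest.Agent.R163.Q3.D.F7c.F9
import Crest.Agent.R163.Q3.D.F7c.F10
import Crest.Agent.R163.Q3.D.F7c.F11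
import Crest.Agent.R163.Q3.D.F7c.F12

set_option autoImplicit false
set_option maxRecDepth 100000
set_option linter.all false
set_option Elab.async false

namespace Crest.Agent.R163.L10

abbrev f0 := F7c.f0
theorem hf0 : FitOK par f0 :=
  FitOK.of_list [1,2,3,4,5] (by decide +kernel) F7c.lf0
abbrev f1 := F7c.f1
theorem hf1 : FitOK par f1 :=
  FitOK.of_list [1,2,3,4,5] (by decide +kernel) F7c.lf1
abbrev f2 := F7c.f2
theorem hf2 : FitOK par f2 :=
  FitOK.of_list [1,2,3,4,5] (by decide +kernel) F7c.lf2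
abbrev f3 := F7c.f3
theorem hf3 : FitOK par f3 :=
  FitOK.of_list [1,2,3,4,5] (by decide +kernel) F7c.lf3
abbrev f4 := F7c.f4
theorem hf4 : FitOK par f4 :=
  FitOK.of_list [1,2,3,4,5] (by decide +kernel) F7c.lf4
abbrev f5 := F7c.f5
theorem hf5 : FitOK par f5 :=
  FitOK.of_list [1,2,3,4,5] (by decide +kernel) F7c.lf5
abbrev f6 := F7c.f6
theorem hf6 : FitOK par f6 :=
  FitOK.of_list [1,2,3,4,5] (by decide +kernel) F7c.lf6
abbrev f7 := F7c.f7
theorem hf7 : FitOK par f7 :=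
  FitOK.of_list [1,2,3,4,5] (by decide +kernel) F7c.lf7
abbrev f8 := F7c.f8
theorem hf8 : FitOK par f8 :=
  FitOK.of_list [1,2,3,4,5] (by decide +kernel) F7c.lf8
abbrev f9 := F7c.f9
theorem hf9 : FitOK par f9 :=
  FitOK.of_list [1,2,3,4,5] (by decide +kernel) F7c.lf9
abbrev f10 := F7c.f10
theorem hf10 : FitOK par f10 :=
  FitOK.of_list [1,2,3,4,5] (by decide +kernel) F7c.lf10
abbrev f11 := F7c.f11
theorem hf11 : FitOK par f11 :=
  FitOK.of_list [1,2,3,4,5] (by decide +kernel) F7c.lf11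
abbrev f12 := F7c.f12
theorem hf12 : FitOK par f12 :=
  FitOK.of_list [1,2,3,4,5] (by decide +kernel) F7c.lf12

end Crest.Agent.R163.L10
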